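import Mathlib

/-!
# P133: comparison of diagonal amplifications, elementwise
-/

namespace Vale.Agent.P133K

open Matrix

universe u

variable {A : Type u} [CStarAlgebra A]

/-- `diag(h, …, h)` (indexed by `I`) `≾` `diag(h, …, h)` (indexed by `J`) -/
def Cmp (h : A) (I J : Type) [Fintype J] [DecidableEq I] : Prop :=
  ∀ ε : ℝ, 0 < ε → ∃ x : J → I → A, ∀ i i',
    ‖∑ j, star (x j i) * h * x j i' - (if i = i' then h else 0)‖ < ε

theorem cmp_quad {J : Type} [Fintype J] (a b : J → A) (E : J → J → A) (δ : ℝ)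
    (hE : ∀ j j', ‖E j j'‖ ≤ δ) :
    ‖∑ j, ∑ j', star (a j) * E j j' * b j'‖ ≤ δ * (∑ j, ‖a j‖) * ∑ j, ‖b j‖ := by
  have h1 : ∀ j j', ‖star (a j) * E j j' * b j'‖ ≤ δ * ‖a j‖ * ‖b j'‖ := by
    intro j j'
    calc ‖star (a j) * E j j' * b j'‖ ≤ ‖star (a j)‖ * ‖E j j'‖ * ‖b j'‖ :=
          (norm_mul_le _ _).trans (mul_le_mul_of_nonneg_right (norm_mul_le _ _) (norm_nonneg _))
      _ ≤ ‖a j‖ * δ * ‖b j'‖ := by
          rw [norm_star]
          exact mul_le_mul_of_nonneg_right
            (mul_le_mul_of_nonneg_left (hE j j') (norm_nonneg _)) (norm_nonneg _)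
      _ = δ * ‖a j‖ * ‖b j'‖ := by ring
  calc ‖∑ j, ∑ j', star (a j) * E j j' * b j'‖
      ≤ ∑ j, ∑ j', δ * ‖a j‖ * ‖b j'‖ :=
        (norm_sum_le _ _).trans (Finset.sum_le_sum fun j _ =>
          (norm_sum_le _ _).trans (Finset.sum_le_sum fun j' _ => h1 j j'))
    _ = δ * (∑ j, ‖a j‖) * ∑ j, ‖b j‖ := by
        rw [mul_assoc, Finset.sum_mul_sum, Finset.mul_sum]
        refine Finset.sum_congr rfl fun j _ => ?_
        rw [Finset.mul_sum]
        exact Finset.sum_congr rfl fun j' _ => by ring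

theorem cmp_expand {h : A} {J L : Type} [Fintype J] [Fintype L] (y : L → J → A) (a b : J → A) :
    ∑ l, star (∑ j, y l j * a j) * h * (∑ j, y l j * b j)
      = ∑ j, ∑ j', star (a j) * (∑ l, star (y l j) * h * y l j') * b j' := by
  calc ∑ l, star (∑ j, y l j * a j) * h * (∑ j, y l j * b j)
      = ∑ l, ∑ j, ∑ j', star (a j) * (star (y l j) * h * y l j') * b j' := by
        refine Finset.sum_congr rfl fun l _ => ?_
        rw [star_sum, Finset.sum_mul, Finset.sum_mul]
        refine Finset.sum_congr rfl fun j _ => ?_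
        rw [Finset.mul_sum]
        refine Finset.sum_congr rfl fun j' _ => ?_
        rw [star_mul]
        simp only [mul_assoc]
    _ = ∑ j, ∑ j', star (a j) * (∑ l, star (y l j) * h * y l j') * b j' := by
        rw [Finset.sum_comm]
        refine Finset.sum_congr rfl fun j _ => ?_
        rw [Finset.sum_comm]
        refine Finset.sum_congr rfl fun j' _ => ?_
        rw [Finset.mul_sum, Finset.sum_mul]

theorem cmp_diag {h : A} {J : Type} [Fintype J] [DecidableEq J] (a b : J → A) :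
    ∑ j, ∑ j', star (a j) * (if j = j' then h else 0) * b j' = ∑ j, star (a j) * h * b j := by
  refine Finset.sum_congr rfl fun j _ => ?_
  rw [Finset.sum_eq_single j]
  · rw [if_pos rfl]
  · intro j' _ hj
    rw [if_neg (Ne.symm hj)]
    simp
  · intro hj
    exact absurd (Finset.mem_univ j) hj

theorem cmp_comp {h : A} {I J L : Type} [Fintype I] [Fintype J] [Fintype L] [DecidableEq I]
    [DecidableEq J] (h1 : Cmp h I J) (h2 : Cmp h J L) : Cmp h I L := by
  intro ε hε
  obtain ⟨x, hx⟩ := h1 (ε / 2) (by positivity)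
  set M : ℝ := ∑ i, ∑ j, ‖x j i‖ with hM
  have hM0 : 0 ≤ M := Finset.sum_nonneg fun j _ => Finset.sum_nonneg fun i _ => norm_nonneg _
  have hMi : ∀ i, ∑ j, ‖x j i‖ ≤ M := fun i =>
    Finset.single_le_sum (f := fun i => ∑ j, ‖x j i‖)
      (fun i _ => Finset.sum_nonneg fun j _ => norm_nonneg _) (Finset.mem_univ i)
  have hMi0 : ∀ i, 0 ≤ ∑ j, ‖x j i‖ := fun i => Finset.sum_nonneg fun j _ => norm_nonneg _
  obtain ⟨y, hy⟩ := h2 (ε / (2 * (M + 1) ^ 2)) (by positivity)
  refine ⟨fun l i => ∑ j, y l j * x j i, fun i i' => ?_⟩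
  rw [cmp_expand]
  have e1 : ∑ j, ∑ j', star (x j i) * (∑ l, star (y l j) * h * y l j') * x j' i'
      - (if i = i' then h else 0)
      = (∑ j, ∑ j', star (x j i) * (∑ l, star (y l j) * h * y l j' - (if j = j' then h else 0))
          * x j' i') + (∑ j, star (x j i) * h * x j i' - (if i = i' then h else 0)) := by
    rw [← cmp_diag (fun j => x j i) (fun j => x j i')]
    have : ∀ j j', star (x j i) * (∑ l, star (y l j) * h * y l j') * x j' i'
        = star (x j i) * (∑ l, star (y l j) * h * y l j' - (if j = j' then h else 0)) * x j' i'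
          + star (x j i) * (if j = j' then h else 0) * x j' i' := by
      intro j j'
      rw [← add_mul, ← mul_add, sub_add_cancel]
    simp only [this, Finset.sum_add_distrib]
    abel
  rw [e1]
  have e2 := cmp_quad (fun j => x j i) (fun j => x j i')
    (fun j j' => ∑ l, star (y l j) * h * y l j' - (if j = j' then h else 0)) _
    (fun j j' => (hy j j').le)
  have e3 : ε / (2 * (M + 1) ^ 2) * (∑ j, ‖x j i‖) * ∑ j, ‖x j i'‖ ≤ ε / 2 := by
    have e4 : (∑ j, ‖x j i‖) * ∑ j, ‖x j i'‖ ≤ (M + 1) ^ 2 := by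
      calc (∑ j, ‖x j i‖) * ∑ j, ‖x j i'‖ ≤ M * M :=
            mul_le_mul (hMi i) (hMi i') (hMi0 i') hM0
        _ ≤ (M + 1) ^ 2 := by nlinarith
    calc ε / (2 * (M + 1) ^ 2) * (∑ j, ‖x j i‖) * ∑ j, ‖x j i'‖
        = ε / (2 * (M + 1) ^ 2) * ((∑ j, ‖x j i‖) * ∑ j, ‖x j i'‖) := by ring
      _ ≤ ε / (2 * (M + 1) ^ 2) * (M + 1) ^ 2 := mul_le_mul_of_nonneg_left e4 (by positivity)
      _ = ε / 2 := by field_simp
  calc _ ≤ _ := norm_add_le _ _
    _ < ε / 2 + ε / 2 := add_lt_add_of_le_of_lt (e2.trans e3) (hx i i')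
    _ = ε := by ring

theorem cmp_restrict {h : A} {I I' J : Type} [Fintype J] [DecidableEq I] [DecidableEq I']
    (f : I' → I) (hf : Function.Injective f) (h1 : Cmp h I J) : Cmp h I' J := by
  intro ε hε
  obtain ⟨x, hx⟩ := h1 ε hε
  refine ⟨fun j i => x j (f i), fun i i' => ?_⟩
  have := hx (f i) (f i')
  simp only [hf.eq_iff] at this
  exact this

theorem cmp_sum {h : A} {I J M : Type} [Fintype J] [Fintype M] [DecidableEq I] [DecidableEq M]
    (h1 : Cmp h I J) : Cmp h (M ⊕ I) (M ⊕ J) := by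
  intro ε hε
  obtain ⟨x, hx⟩ := h1 ε hε
  refine ⟨fun p q => match p, q with
    | Sum.inl m, Sum.inl m' => if m = m' then 1 else 0
    | Sum.inr j, Sum.inr i => x j i
    | _, _ => 0, ?_⟩
  rintro (m | i) (m' | i')
  · rw [Fintype.sum_sum_type]
    simp only [star_zero, zero_mul, Finset.sum_const_zero, add_zero, Sum.inl.injEq]
    rw [Finset.sum_eq_single m]
    · by_cases hm : m = m'
      · simp [hm, hε]
      · simp [hm, hε]
    · intro b _ hb
      simp [hb]
    · simp
  · rw [Fintype.sum_sum_type]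
    simp [hε]
  · rw [Fintype.sum_sum_type]
    simp [hε]
  · rw [Fintype.sum_sum_type]
    simp only [star_zero, zero_mul, Finset.sum_const_zero, zero_add, Sum.inr.injEq]
    exact hx i i'

theorem cmp_all {h : A} {n : ℕ} (hn : 1 ≤ n) (h1 : Cmp h (Fin n ⊕ Fin n) (Fin n)) (m : ℕ) :
    Cmp h (Fin m) (Fin n) := by
  induction m with
  | zero =>
    intro ε hε
    exact ⟨fun _ _ => 0, fun i => i.elim0⟩
  | succ m ih =>
    have h2 : Cmp h (Fin n ⊕ Fin m) (Fin n) := cmp_comp (cmp_sum ih) h1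
    refine cmp_restrict (fun i : Fin (m + 1) => if hi : (i : ℕ) < m then Sum.inr ⟨i, hi⟩
      else Sum.inl ⟨0, hn⟩) ?_ h2
    intro i j hij
    by_cases hi : (i : ℕ) < m
    · by_cases hj : (j : ℕ) < m
      · simp only [hi, hj, dif_pos, Sum.inr.injEq, Fin.mk.injEq] at hij
        exact Fin.ext hij
      · simp [hi, hj] at hij
    · by_cases hj : (j : ℕ) < m
      · simp [hi, hj] at hij
      · have := i.isLt
        have := j.isLt
        exact Fin.ext (by omega)

/-- uniform bounds, by cutting down -/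
theorem cmp_bdd {I J : Type} [Fintype J] [DecidableEq I]
    (h : ∀ b : A, Cmp (star b * b) I J) (C η : ℝ) (hC : 0 ≤ C) (hη : 0 < η) :
    ∃ M : ℝ, 0 ≤ M ∧ ∀ b : A, ‖star b * b‖ ≤ C → ∃ y : J → I → A, (∀ j i, ‖y j i‖ ≤ M) ∧
      ∀ i i', ‖∑ j, star (y j i) * (star b * b) * y j i' -
        (if i = i' then star b * b else 0)‖ ≤ η := by
  letI : PartialOrder A := CStarAlgebra.spectralOrder A
  haveI : StarOrderedRing A := CStarAlgebra.spectralOrderedRing A
  set δ : ℝ := η / 4 with hδ
  have hδ0 : 0 < δ := by positivity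
  refine ⟨Real.sqrt ((C + 2 * δ + η) / δ), Real.sqrt_nonneg _, fun b hb => ?_⟩
  set g : A := star b * b with hg
  have hgp : 0 ≤ g := star_mul_self_nonneg b
  have hgs : IsSelfAdjoint g := IsSelfAdjoint.of_nonneg hgp
  set φ : ℝ → ℝ := fun t => max (t - δ) 0 / max t δ with hφ
  have hmax : ∀ t : ℝ, 0 < max t δ := fun t => lt_of_lt_of_le hδ0 (le_max_right _ _)
  have hφc : Continuous φ := by
    refine Continuous.div (by fun_prop) (by fun_prop) fun t => (hmax t).ne'
  have hφ0 : ∀ t, t ≤ δ → φ t = 0 := by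
    intro t ht
    simp only [hφ]
    rw [max_eq_right (by linarith : t - δ ≤ 0), zero_div]
  have hφ1 : ∀ t, δ ≤ t → φ t = (t - δ) / t := by
    intro t ht
    simp only [hφ]
    rw [max_eq_left (by linarith : 0 ≤ t - δ), max_eq_left ht]
  set f : A := cfc φ g with hf
  have hfs : star f = f := (cfc_predicate φ g : IsSelfAdjoint f).star_eq
  set k : A := star (b * f) * (b * f) with hk
  have hkf : k = f * g * f := by
    rw [hk, star_mul, hfs, hg]
    simp only [mul_assoc]
  have hkc : k = cfc (fun t => φ t * t * φ t) g := by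
    rw [hkf, hf]
    rw [cfc_mul (fun t => φ t * t) φ g (by fun_prop) hφc.continuousOn,
      cfc_mul φ (fun t => t) g hφc.continuousOn continuousOn_id, cfc_id' ℝ g]
  have hspec : ∀ t ∈ spectrum ℝ g, 0 ≤ t := fun t ht => spectrum_nonneg_of_nonneg hgp ht
  have hkg : ‖k - g‖ ≤ 2 * δ := by
    have e1 : k - g = cfc (fun t => φ t * t * φ t - t) g := by
      rw [cfc_sub (fun t => φ t * t * φ t) (fun t => t) g (by fun_prop) continuousOn_id,
        cfc_id' ℝ g, hkc]
    rw [e1]
    refine norm_cfc_le (by positivity) fun t ht => ?_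
    have ht0 := hspec t ht
    rw [Real.norm_eq_abs, abs_le]
    rcases le_total t δ with h1 | h1
    · rw [hφ0 t h1]
      constructor <;> linarith
    · have ht1 : 0 < t := lt_of_lt_of_le hδ0 h1
      rw [hφ1 t h1]
      have e2 : (t - δ) / t * t * ((t - δ) / t) - t = -(2 * δ) + δ ^ 2 / t := by
        field_simp
        ring
      rw [e2]
      have e3 : 0 ≤ δ ^ 2 / t := by positivity
      have e4 : δ ^ 2 / t ≤ δ := by
        rw [div_le_iff₀ ht1]
        nlinarith
      constructor <;> linarith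
  have hkn : ‖k‖ ≤ C + 2 * δ := by
    calc ‖k‖ = ‖g + (k - g)‖ := by rw [add_sub_cancel]
      _ ≤ ‖g‖ + ‖k - g‖ := norm_add_le _ _
      _ ≤ C + 2 * δ := add_le_add hb hkg
  have hff : f * f ≤ δ⁻¹ • k := by
    rw [hkc, hf, ← cfc_mul φ φ g hφc.continuousOn hφc.continuousOn,
      ← cfc_smul δ⁻¹ (fun t => φ t * t * φ t) g (by fun_prop)]
    refine cfc_mono (fun t ht => ?_) (by fun_prop) (by fun_prop)
    rcases le_total t δ with h1 | h1
    · rw [hφ0 t h1]
      simp
    · have e1 : φ t * φ t * δ ≤ φ t * φ t * t :=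
        mul_le_mul_of_nonneg_left h1 (mul_self_nonneg _)
      show φ t * φ t ≤ δ⁻¹ * (φ t * t * φ t)
      rw [inv_mul_eq_div, le_div_iff₀ hδ0]
      linarith
  obtain ⟨z, hz⟩ := h (b * f) (η / 2) (by positivity)
  have hy : ∀ j i i', star (f * z j i) * g * (f * z j i') = star (z j i) * k * z j i' := by
    intro j i i'
    rw [hkf, star_mul, hfs]
    simp only [mul_assoc]
  refine ⟨fun j i => f * z j i, fun j i => ?_, fun i i' => ?_⟩
  · have hsum : ‖∑ j, star (z j i) * k * z j i‖ ≤ C + 2 * δ + η := by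
      have h1 := (hz i i).le
      rw [if_pos rfl] at h1
      calc ‖∑ j, star (z j i) * k * z j i‖ = ‖(∑ j, star (z j i) * k * z j i - k) + k‖ := by
            rw [sub_add_cancel]
        _ ≤ ‖∑ j, star (z j i) * k * z j i - k‖ + ‖k‖ := norm_add_le _ _
        _ ≤ η / 2 + (C + 2 * δ) := add_le_add h1 hkn
        _ ≤ C + 2 * δ + η := by linarith
    have hkp : 0 ≤ k := star_mul_self_nonneg _
    have hpos : ∀ j, 0 ≤ star (z j i) * k * z j i := fun j => star_left_conjugate_nonneg hkp _
    have h1 : star (z j i) * k * z j i ≤ ∑ j, star (z j i) * k * z j i :=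
      Finset.single_le_sum (f := fun j => star (z j i) * k * z j i) (fun j _ => hpos j)
        (Finset.mem_univ j)
    have h2 : ‖star (z j i) * k * z j i‖ ≤ C + 2 * δ + η :=
      (CStarAlgebra.norm_le_norm_of_nonneg_of_le (hpos j) h1).trans hsum
    have h3 : star (f * z j i) * (f * z j i) ≤ δ⁻¹ • (star (z j i) * k * z j i) := by
      have h4 := star_left_conjugate_le_conjugate hff (z j i)
      calc star (f * z j i) * (f * z j i) = star (z j i) * (f * f) * z j i := by
            rw [star_mul, hfs]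
            simp only [mul_assoc]
        _ ≤ star (z j i) * (δ⁻¹ • k) * z j i := h4
        _ = δ⁻¹ • (star (z j i) * k * z j i) := by
            rw [mul_smul_comm, smul_mul_assoc]
    have h5 : ‖f * z j i‖ ^ 2 ≤ (C + 2 * δ + η) / δ := by
      calc ‖f * z j i‖ ^ 2 = ‖star (f * z j i) * (f * z j i)‖ := by
            rw [CStarRing.norm_star_mul_self, sq]
        _ ≤ ‖δ⁻¹ • (star (z j i) * k * z j i)‖ :=
            CStarAlgebra.norm_le_norm_of_nonneg_of_le (star_mul_self_nonneg _) h3
        _ = δ⁻¹ * ‖star (z j i) * k * z j i‖ := by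
            rw [norm_smul, Real.norm_of_nonneg (by positivity)]
        _ ≤ δ⁻¹ * (C + 2 * δ + η) := mul_le_mul_of_nonneg_left h2 (by positivity)
        _ = (C + 2 * δ + η) / δ := by rw [div_eq_inv_mul]
    exact Real.le_sqrt_of_sq_le h5
  · have e1 : ∑ j, star (f * z j i) * g * (f * z j i') - (if i = i' then g else 0)
        = (∑ j, star (z j i) * k * z j i' - (if i = i' then k else 0))
          + (if i = i' then k - g else 0) := by
      simp only [hy]
      split_ifs <;> abel
    rw [e1]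
    have e2 : ‖(if i = i' then k - g else 0 : A)‖ ≤ 2 * δ := by
      split_ifs
      · exact hkg
      · rw [norm_zero]
        positivity
    calc _ ≤ _ := norm_add_le _ _
      _ ≤ η / 2 + 2 * δ := add_le_add (hz i i').le e2
      _ = η := by rw [hδ]; ring

end Vale.Agent.P133K
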