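import Mathlib

/-!
# P133: purely infinite C*-algebras (definitions)

Positive elements of a C*-algebra are the elements `star b * b`.
-/

namespace Vale.Agent.P133K

open Matrix

universe u

/-- Cuntz comparison `u ≾ v` of matrices over `A`: there are matrices `x` with `x* v x → u`. -/
def CuntzLE {A : Type u} [CStarAlgebra A] {I J : Type} [Fintype I] [Fintype J]
    (u : Matrix I I A) (v : Matrix J J A) : Prop :=
  ∀ ε : ℝ, 0 < ε → ∃ x : Matrix J I A, ∀ i i', ‖(xᴴ * v * x - u) i i'‖ < ε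

/-- the `n`-fold diagonal amplification `d = diag(h, …, h)` is properly infinite: `d ⊕ d ≾ d` -/
def PropInf {A : Type u} [CStarAlgebra A] (n : ℕ) (h : A) : Prop :=
  CuntzLE (fromBlocks (diagonal fun _ : Fin n => h) 0 0 (diagonal fun _ : Fin n => h))
    (diagonal fun _ : Fin n => h)

/-- weakly purely infinite -/
def WeaklyPurelyInfinite (A : Type u) [CStarAlgebra A] : Prop :=
  ∃ n : ℕ, 1 ≤ n ∧ ∀ b : A, PropInf n (star b * b)

/-- purely infinite -/
def PurelyInfinite (A : Type u) [CStarAlgebra A] : Prop :=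
  ∀ b : A, PropInf 1 (star b * b)

/-- strongly purely infinite -/
def StronglyPurelyInfinite (A : Type u) [CStarAlgebra A] : Prop :=
  ∀ x y : A, (∃ a, x = star a * a) → (∃ b, y = star b * b) → ∀ ε : ℝ, 0 < ε → ∃ s t : A,
    ‖star s * x ^ 2 * s - x ^ 2‖ < ε ∧ ‖star t * y ^ 2 * t - y ^ 2‖ < ε ∧
      ‖star s * x * y * t‖ < ε

end Vale.Agent.P133K
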